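import Mathlib
import Vale.Agent.Lib.P369.Main

/-!
# P369: the entropy photon-number inequality for one-mode mixtures of vacuum and one photon

`p`, `q` are the one-photon probabilities of the Fock-diagonal inputs `ρ_A`, `ρ_B`, and `η` is
the transmissivity.  `a`, `b`, `c` are the entropy photon numbers of `ρ_A`, `ρ_B`, `ρ_C`:
the nonnegative reals with `g a = S(ρ_A)`, `g b = S(ρ_B)`, `g c = S(ρ_C)`.
The definitions are in `Vale.Agent.Lib.P369.Defs`.
-/

namespace Vale.Agent.Results.P369.Fock01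

open Vale.Agent.Lib.P369

theorem result (p q η a b c : ℝ) (hp0 : 0 ≤ p) (hp1 : p ≤ 1) (hq0 : 0 ≤ q) (hq1 : q ≤ 1)
    (hη0 : 0 ≤ η) (hη1 : η ≤ 1) (ha : 0 ≤ a) (hb : 0 ≤ b) (hc : 0 ≤ c)
    (hA : gfun a = Real.binEntropy p) (hB : gfun b = Real.binEntropy q)
    (hC : gfun c = Real.negMulLog (out0 p q η) + Real.negMulLog (out1 p q η) +
      Real.negMulLog (out2 p q η)) :
    η * a + (1 - η) * b ≤ c :=
  epni_fock01 hp0 hp1 hq0 hq1 hη0 hη1 ha hb hc hA hB hC

end Vale.Agent.Results.P369.Fock01
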