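import Mathlib
import Vale.Agent.Lib.P369.Modes

/-!
# P369: the entropy photon-number inequality for `n` modes, inputs diagonal in the product Fock
basis with at most one photon per mode

`P`, `Q` are arbitrary probability distributions on the configurations `Fin n → Fin 2`
(photon number `0` or `1` in each of the `n` modes); they are the spectra of the inputs
`ρ_A = ∑ x, P x |x⟩⟨x|` and `ρ_B = ∑ y, Q y |y⟩⟨y|`.  The output `ρ_C` is diagonal in the product
Fock basis with eigenvalues `modeOut η n P Q z`, `z : Fin n → Fin 3`.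
`a`, `b`, `c` are the entropy photon numbers of `ρ_A`, `ρ_B`, `ρ_C`: the nonnegative reals with
`n g(a) = S(ρ_A)`, `n g(b) = S(ρ_B)`, `n g(c) = S(ρ_C)`.
The definitions are in `Vale.Agent.Lib.P369.Defs` and `Vale.Agent.Lib.P369.DefsN`.
-/

namespace Vale.Agent.Results.P369.FockModes

open Vale.Agent.Lib.P369

theorem result (n : ℕ) (hn : 1 ≤ n) (η : ℝ) (hη0 : 0 ≤ η) (hη1 : η ≤ 1)
    (P Q : (Fin n → Fin 2) → ℝ) (hP0 : ∀ x, 0 ≤ P x) (hP1 : ∑ x, P x = 1)
    (hQ0 : ∀ y, 0 ≤ Q y) (hQ1 : ∑ y, Q y = 1) (a b c : ℝ) (ha : 0 ≤ a) (hb : 0 ≤ b)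
    (hc : 0 ≤ c) (hA : (n : ℝ) * gfun a = ∑ x, Real.negMulLog (P x))
    (hB : (n : ℝ) * gfun b = ∑ y, Real.negMulLog (Q y))
    (hC : (n : ℝ) * gfun c = ∑ z, Real.negMulLog (modeOut η n P Q z)) :
    η * a + (1 - η) * b ≤ c :=
  epni_fock_modes hn hη0 hη1 hP0 hP1 hQ0 hQ1 ha hb hc hA hB hC

end Vale.Agent.Results.P369.FockModes
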