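import Mathlib
import Vale.Agent.Lib.P369.QMain
import Vale.Agent.Lib.P369.QIso

/-!
# P369: the entropy photon-number inequality for all one-mode inputs with at most one photon

One mode.  `A`, `B` are the density matrices of the input states `ρ_A`, `ρ_B` in the basis
`|0⟩`, `|1⟩` of Fock states: arbitrary positive semidefinite `2 × 2` complex matrices of trace
one, coherences included.  `bsIso η` is the matrix of the beam splitter of transmissivity `η`
from the span of `|j⟩|k⟩`, `j, k ≤ 1`, to the span of `|m⟩|l⟩`, `m, l ≤ 2`, and `bsOut η A B` is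
the density matrix of the output state `ρ_C` in the basis `|0⟩`, `|1⟩`, `|2⟩`.  `vnEntropy` is
the von Neumann entropy and `gfun` is `g`.  The definitions are in
`Vale.Agent.Lib.P369.Defs` and `Vale.Agent.Lib.P369.DefsQ`.
-/

namespace Vale.Agent.Results.P369.QubitInputs

open Vale.Agent.Lib.P369
open scoped ComplexOrder

theorem result (η : ℝ) (hη0 : 0 ≤ η) (hη1 : η ≤ 1) (A B : Matrix (Fin 2) (Fin 2) ℂ)
    (hA : A.PosSemidef) (hB : B.PosSemidef) (hAtr : A.trace = 1) (hBtr : B.trace = 1) :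
    (bsIso η).conjTranspose * bsIso η = 1 ∧
    (bsOut η A B).PosSemidef ∧ (bsOut η A B).trace = 1 ∧
    (∃ a b c : ℝ, 0 ≤ a ∧ 0 ≤ b ∧ 0 ≤ c ∧ gfun a = vnEntropy A ∧ gfun b = vnEntropy B ∧
      gfun c = vnEntropy (bsOut η A B)) ∧
    ∀ a b c : ℝ, 0 ≤ a → 0 ≤ b → 0 ≤ c → gfun a = vnEntropy A → gfun b = vnEntropy B →
      gfun c = vnEntropy (bsOut η A B) → η * a + (1 - η) * b ≤ c := by
  have hC : (bsOut η A B).PosSemidef := bsOut_posSemidef η hA hB
  have hCtr : (bsOut η A B).trace = 1 := by rw [bsOut_trace hη0 hη1, hAtr, hBtr, one_mul]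
  refine ⟨bsIso_isometry hη0 hη1, hC, hCtr, ?_, ?_⟩
  · obtain ⟨a, ha, hSA⟩ := exists_gfun_eq_vnEntropy hA hAtr
    obtain ⟨b, hb, hSB⟩ := exists_gfun_eq_vnEntropy hB hBtr
    obtain ⟨c, hc, hSC⟩ := exists_gfun_eq_vnEntropy hC hCtr
    exact ⟨a, b, c, ha, hb, hc, hSA, hSB, hSC⟩
  · intro a b c ha hb hc hSA hSB hSC
    exact epni_qubit hη0 hη1 hA hB hAtr hBtr ha hb hc hSA hSB hSC

end Vale.Agent.Results.P369.QubitInputs
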