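import Mathlib
import Vale.Agent.Lib.P369.QNMain

/-!
# P369: the entropy photon-number inequality for `n` modes with at most one photon per mode,
for inputs diagonal in the product Fock basis and for product inputs

`A`, `B` are the density matrices of the `n`-mode input states `ρ_A`, `ρ_B` in the product Fock
basis `|x 0⟩ ⊗ ⋯ ⊗ |x (n - 1)⟩`, `x : Fin n → Fin 2` (at most one photon in each mode).
`bsIsoN η n` is the matrix of the `n`-mode beam splitter on these states and `bsOutN η n A B` is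
the density matrix of the output state `ρ_C`, indexed by `z : Fin n → Fin 3`.  `vnEntropy` is the
von Neumann entropy, `gfun` is `g`, and `tensorN` is the tensor product of `n` one-mode
matrices.  The definitions are in `Vale.Agent.Lib.P369.Defs`, `Vale.Agent.Lib.P369.DefsQ` and
`Vale.Agent.Lib.P369.DefsQN`.
-/

namespace Vale.Agent.Results.P369.QubitModes

open Vale.Agent.Lib.P369
open scoped ComplexOrder

theorem result (n : ℕ) (hn : 1 ≤ n) (η : ℝ) (hη0 : 0 ≤ η) (hη1 : η ≤ 1) :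
    (bsIsoN η n).conjTranspose * bsIsoN η n = 1 ∧
    ∀ A B : Matrix (Fin n → Fin 2) (Fin n → Fin 2) ℂ, A.PosSemidef → B.PosSemidef →
      A.trace = 1 → B.trace = 1 →
      ((bsOutN η n A B).PosSemidef ∧ (bsOutN η n A B).trace = 1 ∧
        ∃ a b c : ℝ, 0 ≤ a ∧ 0 ≤ b ∧ 0 ≤ c ∧ (n : ℝ) * gfun a = vnEntropy A ∧
          (n : ℝ) * gfun b = vnEntropy B ∧ (n : ℝ) * gfun c = vnEntropy (bsOutN η n A B)) ∧
      (((∃ P Q : (Fin n → Fin 2) → ℝ, A = Matrix.diagonal (fun x => (P x : ℂ)) ∧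
            B = Matrix.diagonal (fun y => (Q y : ℂ))) ∨
          (∃ A' B' : Fin n → Matrix (Fin 2) (Fin 2) ℂ,
            (∀ i, (A' i).PosSemidef ∧ (A' i).trace = 1 ∧ (B' i).PosSemidef ∧
              (B' i).trace = 1) ∧ A = tensorN A' ∧ B = tensorN B')) →
        ∀ a b c : ℝ, 0 ≤ a → 0 ≤ b → 0 ≤ c → (n : ℝ) * gfun a = vnEntropy A →
          (n : ℝ) * gfun b = vnEntropy B → (n : ℝ) * gfun c = vnEntropy (bsOutN η n A B) →
          η * a + (1 - η) * b ≤ c) := by
  refine ⟨bsIsoN_isometry hη0 hη1 n, ?_⟩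
  intro A B hA hB hAtr hBtr
  have hC : (bsOutN η n A B).PosSemidef := bsOutN_posSemidef η n hA hB
  have hCtr : (bsOutN η n A B).trace = 1 := by rw [bsOutN_trace hη0 hη1, hAtr, hBtr, one_mul]
  refine ⟨⟨hC, hCtr, ?_⟩, ?_⟩
  · obtain ⟨a, ha, hSA⟩ := exists_mul_gfun_eq_vnEntropy hA hAtr hn
    obtain ⟨b, hb, hSB⟩ := exists_mul_gfun_eq_vnEntropy hB hBtr hn
    obtain ⟨c, hc, hSC⟩ := exists_mul_gfun_eq_vnEntropy hC hCtr hn
    exact ⟨a, b, c, ha, hb, hc, hSA, hSB, hSC⟩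
  · rintro (⟨P, Q, rfl, rfl⟩ | ⟨A', B', h, rfl, rfl⟩) a b c ha hb hc hSA hSB hSC
    · exact epni_modes_diag hn hη0 hη1 hA hB hAtr hBtr ha hb hc hSA hSB hSC
    · exact epni_modes_prod hn hη0 hη1 (fun i => (h i).1) (fun i => (h i).2.2.1)
        (fun i => (h i).2.1) (fun i => (h i).2.2.2) ha hb hc hSA hSB hSC

end Vale.Agent.Results.P369.QubitModes
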